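import Vale.Agent.P279.Main

/-! Polynomial coordinate systems. -/

namespace Vale.Agent.P279

open MvPolynomial

theorem MultGE.mul {p : Fin 2 → ℂ} : ∀ {m : ℕ} (G : MvPolynomial (Fin 2) ℂ)
    {F : MvPolynomial (Fin 2) ℂ}, MultGE p m F → MultGE p m (G * F)
  | 0, _, _, _ => trivial
  | m + 1, G, F, hF => ⟨by rw [map_mul, hF.1, mul_zero], fun i => by
      rw [pderiv_mul]
      exact (MultGE.mul _ hF.pred).add (MultGE.mul _ (hF.2 i))⟩

theorem chain (g : Fin 2 → MvPolynomial (Fin 2) ℂ) (i : Fin 2) (F : MvPolynomial (Fin 2) ℂ) :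
    pderiv i (bind₁ g F) = pderiv i (g 0) * bind₁ g (pderiv 0 F) +
      pderiv i (g 1) * bind₁ g (pderiv 1 F) := by
  induction F using MvPolynomial.induction_on with
  | C a => simp
  | add p q hp hq => rw [map_add, map_add, hp, hq, map_add, map_add, map_add, map_add]; ring
  | mul_X p j hp =>
    rw [map_mul, pderiv_mul, hp, bind₁_X_right]
    fin_cases j
    · simp only [Fin.zero_eta, Fin.isValue, pderiv_mul, pderiv_X_self, map_add, map_mul,
        bind₁_X_right, map_one, mul_one]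
      rw [pderiv_X_of_ne (show (0 : Fin 2) ≠ 1 by decide)]
      simp only [map_zero, mul_zero, add_zero]
      ring
    · simp only [Fin.mk_one, Fin.isValue, pderiv_mul, pderiv_X_self, map_add, map_mul,
        bind₁_X_right, map_one, mul_one]
      rw [pderiv_X_of_ne (show (1 : Fin 2) ≠ 0 by decide)]
      simp only [map_zero, mul_zero, add_zero]
      ring

theorem eval_bind {σ τ : Type} (g : σ → MvPolynomial τ ℂ) (q : τ → ℂ) (F : MvPolynomial σ ℂ) :
    eval q (bind₁ g F) = eval (fun k => eval q (g k)) F := by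
  induction F using MvPolynomial.induction_on with
  | C a => simp
  | add p q hp hq => rw [map_add, map_add, hp, hq, map_add]
  | mul_X p j hp => rw [map_mul, map_mul, hp, bind₁_X_right, map_mul, eval_X]

theorem MultGE.bind (g : Fin 2 → MvPolynomial (Fin 2) ℂ) (q : Fin 2 → ℂ) : ∀ {m : ℕ}
    {F : MvPolynomial (Fin 2) ℂ}, MultGE (fun k => eval q (g k)) m F → MultGE q m (bind₁ g F)
  | 0, _, _ => trivial
  | m + 1, F, hF => ⟨by rw [eval_bind]; exact hF.1, fun i => by
      rw [chain]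
      exact ((MultGE.bind g q (hF.2 0)).mul _).add ((MultGE.bind g q (hF.2 1)).mul _)⟩

theorem veryGeneral_of {r : ℕ} {Q : (Fin r → Fin 2 → ℂ) → Prop} {ι : Type} [Countable ι]
    (H : ι → MvPolynomial (Fin r × Fin 2) ℂ) (hH : ∀ i, H i ≠ 0)
    (h : ∀ p : Fin r → Fin 2 → ℂ, (∀ i, eval (fun z => p z.1 z.2) (H i) ≠ 0) → Q p) :
    VeryGeneral r Q := by
  rcases isEmpty_or_nonempty ι with hι | hι
  · exact ⟨fun _ => 1, fun _ => one_ne_zero, fun p _ => h p fun i => (hι.false i).elim⟩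
  · obtain ⟨e, he⟩ := exists_surjective_nat ι
    refine ⟨fun j => H (e j), fun j => hH _, fun p hp => h p fun i => ?_⟩
    obtain ⟨j, rfl⟩ := he i
    exact hp j

theorem pull {r : ℕ} (H : MvPolynomial (Fin r × Fin 2) ℂ) (hH : H ≠ 0) (c : Coord) :
    ∃ H' : MvPolynomial (Fin r × Fin 2) ℂ, H' ≠ 0 ∧ ∀ p : Fin r → Fin 2 → ℂ,
      eval (fun z => p z.1 z.2) H' = eval (fun z => eval (p z.1) (c.g' z.2)) H := by
  have key : ∀ p : Fin r → Fin 2 → ℂ, eval (fun z => p z.1 z.2)
      (bind₁ (fun z : Fin r × Fin 2 => rename (fun k => (z.1, k)) (c.g' z.2)) H) =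
      eval (fun z => eval (p z.1) (c.g' z.2)) H := by
    intro p
    have h2 : ∀ z : Fin r × Fin 2, eval (fun z : Fin r × Fin 2 => p z.1 z.2)
        (rename (fun k => (z.1, k)) (c.g' z.2)) = eval (p z.1) (c.g' z.2) := by
      intro z
      rw [eval_rename]
      rfl
    rw [eval_bind]
    congr 1
    congr 1
    funext z
    exact h2 z
  refine ⟨_, ?_, key⟩
  intro h0
  obtain ⟨q, hq⟩ : ∃ q : Fin r × Fin 2 → ℂ, eval q H ≠ 0 := by
    by_contra hc
    push Not at hc
    exact hH (MvPolynomial.funext fun q => by rw [hc q, map_zero])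
  have h1 := key (fun i k => eval (fun l => q (i, l)) (c.g k))
  rw [h0, map_zero] at h1
  refine hq ?_
  rw [h1]
  congr 1
  congr 1
  funext z
  exact (congrFun (c.right (fun l => q (z.1, l))) z.2).symm

theorem bind_ne_zero (c : Coord) {F : MvPolynomial (Fin 2) ℂ} (hF : F ≠ 0) : bind₁ c.g F ≠ 0 := by
  intro h0
  refine hF (MvPolynomial.funext fun p => ?_)
  have h1 := eval_bind c.g (fun l => eval p (c.g' l)) F
  rw [h0, map_zero, c.left p] at h1
  rw [← h1, map_zero]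

theorem final_coord (r : ℕ) (S : Set Coord) (hS : S.Countable) :
    VeryGeneral r fun p => ∀ c ∈ S, ∀ (F : MvPolynomial (Fin 2) ℂ)
    (m : Fin r → ℕ), F ≠ 0 → (∀ i, MultGE (p i) (m i) F) →
    (∀ (w : Fin 2 → ℕ) (h : ℕ),
      (∀ k, ((bind₁ c.g F).support.filter (fun a => w 0 * a 0 + w 1 * a 1 = k)).card ≤ h) →
      ∑ i, (m i + 1 - h) <
        ((bind₁ c.g F).support.image (fun a => w 0 * a 0 + w 1 * a 1)).card) ∧
    ∑ i, m i < (bind₁ c.g F).support.card ∧
    ∀ (d : ℕ), ((((bind₁ c.g F).support.card : ℝ) ≤ d * √r → ((∑ i, m i : ℕ) : ℝ) < d * √r) ∧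
    ((bind₁ c.g F).totalDegree ≤ d → ∀ h : ℕ, (d : ℝ) + r * ((h : ℝ) - 1) < d * √r →
      ((∀ k, ((bind₁ c.g F).support.filter (fun a => a 0 = k)).card ≤ h) ∨
        (∀ k, ((bind₁ c.g F).support.filter (fun a => a 1 = k)).card ≤ h) ∨
        ∀ k, ((bind₁ c.g F).support.filter (fun a => a 0 + a 1 = k)).card ≤ h) →
      ((∑ i, m i : ℕ) : ℝ) < d * √r)) := by
  obtain ⟨H, hH0, hH⟩ := final r
  have : Countable S := hS.to_subtype
  choose H' h1 h2 using fun z : S × ℕ => pull (H z.2) (hH0 z.2) z.1.1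
  refine veryGeneral_of (ι := S × ℕ) H' h1 ?_
  intro p hp c hc F m hF hm
  have h3 := hH (fun i k => eval (p i) (c.g' k)) (fun j => by
    have := hp (⟨c, hc⟩, j)
    rwa [h2] at this)
  have h4 : ∀ i, MultGE (fun k => eval (p i) (c.g' k)) (m i) (bind₁ c.g F) := fun i =>
    MultGE.bind c.g _ (by rw [c.left (p i)]; exact hm i)
  have h5 := fun d hd => h3 d (bind₁ c.g F) m (bind_ne_zero c hF) hd h4
  have h6 := h5 _ le_rfl
  refine ⟨h6.1, h6.2.1, fun d => ⟨fun h7 => ?_, fun hd => (h5 d hd).2.2.2⟩⟩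
  have h8 : ((∑ i, m i : ℕ) : ℝ) < (bind₁ c.g F).support.card := by exact_mod_cast h6.2.1
  linarith

end Vale.Agent.P279
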