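import Mathlib

/-! # P279: multiplicities of plane curves, very general tuples of points -/

namespace Vale.Agent.P279

open MvPolynomial

/-- all partial derivatives of `F` of order less than `m` vanish at the point `p` of the affine
plane, that is, `F` has multiplicity at least `m` at `p` -/
def MultGE (p : Fin 2 → ℂ) : ℕ → MvPolynomial (Fin 2) ℂ → Prop
  | 0, _ => True
  | m + 1, F => eval p F = 0 ∧ ∀ i, MultGE p m (pderiv i F)

/-- `Q` holds for very general `r`-tuples of points of the affine plane `ℂ²`: it holds outside a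
countable union of zero sets of nonzero polynomials in the `2 r` coordinates -/
def VeryGeneral (r : ℕ) (Q : (Fin r → Fin 2 → ℂ) → Prop) : Prop :=
  ∃ H : ℕ → MvPolynomial (Fin r × Fin 2) ℂ, (∀ j, H j ≠ 0) ∧
    ∀ p : Fin r → Fin 2 → ℂ, (∀ j, eval (fun z => p z.1 z.2) (H j) ≠ 0) → Q p

/-- a polynomial coordinate system of the affine plane: a polynomial map `g` from `ℂ²` to `ℂ²` with a
polynomial inverse `g'` -/
structure Coord where
  /-- the map -/
  g : Fin 2 → MvPolynomial (Fin 2) ℂ
  /-- the inverse -/
  g' : Fin 2 → MvPolynomial (Fin 2) ℂ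
  left : ∀ p : Fin 2 → ℂ, (fun k => eval (fun l => eval p (g' l)) (g k)) = p
  right : ∀ p : Fin 2 → ℂ, (fun k => eval (fun l => eval p (g l)) (g' k)) = p

end Vale.Agent.P279
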