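import Vale.Agent.P279.Pts

/-! The induction on the number of points. -/

namespace Vale.Agent.P279

open MvPolynomial

theorem P_add (A : Finset (Fin 2 →₀ ℕ)) (c c' : (Fin 2 →₀ ℕ) → ℂ) :
    P A (fun a => c a + c' a) = P A c + P A c' := by
  unfold P
  rw [← Finset.sum_add_distrib]
  exact Finset.sum_congr rfl fun a _ => map_add _ _ _

theorem P_smul (A : Finset (Fin 2 →₀ ℕ)) (r : ℂ) (c : (Fin 2 →₀ ℕ) → ℂ) :
    P A (fun a => r * c a) = r • P A c := by
  unfold P
  rw [Finset.smul_sum]
  exact Finset.sum_congr rfl fun a _ => by rw [smul_monomial, smul_eq_mul]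

theorem P_zero (A : Finset (Fin 2 →₀ ℕ)) : P A (fun _ => 0) = 0 := by
  unfold P
  simp

open Classical in
/-- extension by zero -/
noncomputable def ext (A : Finset (Fin 2 →₀ ℕ)) (z : ↥A → ℂ) (a : Fin 2 →₀ ℕ) : ℂ :=
  if h : a ∈ A then z ⟨a, h⟩ else 0

theorem ext_apply {A : Finset (Fin 2 →₀ ℕ)} (z : ↥A → ℂ) {a : Fin 2 →₀ ℕ} (h : a ∈ A) :
    ext A z a = z ⟨a, h⟩ := dif_pos h

theorem exists_pts (w : Fin 2 → ℕ) (h : ℕ) : ∀ (r : ℕ) (m : Fin r → ℕ)
    (A : Finset (Fin 2 →₀ ℕ)), (∀ k, (A.filter (fun a => wt w a = k)).card ≤ h) →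
    (A.image (wt w)).card ≤ ∑ i, (m i + 1 - h) →
    ∃ x : Fin r → Fin 2 → ℝ, ∀ c : (Fin 2 →₀ ℕ) → ℂ,
      (∀ i, MultGE (fun k => ((x i k : ℝ) : ℂ)) (m i) (P A c)) → ∀ a ∈ A, c a = 0 := by
  classical
  intro r
  induction r with
  | zero =>
    intro m A _ h2
    refine ⟨fun _ _ => 0, fun c _ a ha => ?_⟩
    simp only [Finset.univ_eq_empty, Finset.sum_empty, Nat.le_zero, Finset.card_eq_zero,
      Finset.image_eq_empty] at h2
    rw [h2] at ha
    simp at ha
  | succ r ih =>
    intro m A h1 h2
    rw [Fin.sum_univ_succ] at h2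
    obtain ⟨T, hT1, hT2⟩ := exists_threshold (A.image (wt w)) (m 0 + 1 - h)
    obtain ⟨x', hx'⟩ := ih (fun i => m i.succ) (A.filter (fun a => T ≤ wt w a)) (fun k =>
      (Finset.card_le_card (Finset.filter_subset_filter _ (Finset.filter_subset _ _))).trans (h1 k)) (by
        have h3 : ((A.filter (fun a => T ≤ wt w a)).image (wt w)).card ≤
            ((A.image (wt w)).filter (T ≤ ·)).card := by
          refine Finset.card_le_card ?_
          intro y hy
          obtain ⟨a, ha, rfl⟩ := Finset.mem_image.mp hy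
          obtain ⟨h4, h5⟩ := Finset.mem_filter.mp ha
          exact Finset.mem_filter.mpr ⟨Finset.mem_image_of_mem _ h4, h5⟩
        omega)
    -- the space of coefficients with the conditions at the last `r` points
    let Z : Submodule ℂ (↥A → ℂ) :=
      { carrier := {z | ∀ i, MultGE (fun k => ((x' i k : ℝ) : ℂ)) (m i.succ) (P A (ext A z))}
        add_mem' := by
          intro z z' hz hz' i
          have h3 : ext A (z + z') = fun a => ext A z a + ext A z' a := by
            funext a
            unfold ext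
            split_ifs
            · rfl
            · ring
          rw [h3, P_add]
          exact (hz i).add (hz' i)
        zero_mem' := by
          intro i
          have h3 : ext A (0 : ↥A → ℂ) = fun _ => 0 := by
            funext a
            unfold ext
            split_ifs
            · rfl
            · rfl
          rw [h3, P_zero]
          exact MultGE.zero _
        smul_mem' := by
          intro s z hz i
          have h3 : ext A (s • z) = fun a => s * ext A z a := by
            funext a
            unfold ext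
            split_ifs
            · rfl
            · ring
          rw [h3, P_smul]
          exact (hz i).smul s }
    let f : Z →ₗ[ℂ] (↥A → ℂ) :=
      { toFun := fun z a => if wt w a.1 < T then z.1 a else 0
        map_add' := by
          intro z z'
          funext a
          show (if wt w a.1 < T then z.1 a + z'.1 a else 0) =
            (if wt w a.1 < T then z.1 a else 0) + (if wt w a.1 < T then z'.1 a else 0)
          split_ifs
          · rfl
          · ring
        map_smul' := by
          intro s z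
          funext a
          show (if wt w a.1 < T then s * z.1 a else 0) = s * (if wt w a.1 < T then z.1 a else 0)
          split_ifs
          · rfl
          · ring }
    have hker : LinearMap.ker f = ⊥ := by
      rw [LinearMap.ker_eq_bot']
      intro z hz
      have h3 : ∀ a (ha : a ∈ A), wt w a < T → z.1 ⟨a, ha⟩ = 0 := by
        intro a ha haT
        have := congrFun hz ⟨a, ha⟩
        have h4 : (if wt w a < T then z.1 ⟨a, ha⟩ else 0) = 0 := this
        rwa [if_pos haT] at h4
      have h4 : P (A.filter (fun a => T ≤ wt w a)) (ext A z.1) = P A (ext A z.1) := by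
        unfold P
        refine Finset.sum_subset (Finset.filter_subset _ _) fun a ha ha' => ?_
        have h5 : wt w a < T := by
          by_contra h6
          exact ha' (Finset.mem_filter.mpr ⟨ha, not_lt.mp h6⟩)
        rw [ext_apply _ ha, h3 a ha h5, map_zero]
      have h5 := hx' (ext A z.1) (fun i => by rw [h4]; exact z.2 i)
      refine Subtype.ext (funext fun a => ?_)
      show z.1 a = 0
      by_cases h6 : wt w a.1 < T
      · exact h3 a.1 a.2 h6
      · have h7 := h5 a.1 (Finset.mem_filter.mpr ⟨a.2, not_lt.mp h6⟩)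
        rwa [ext_apply _ a.2] at h7
    obtain ⟨K, hK0, hK⟩ := f.exists_antilipschitzWith hker
    -- the constants for the first point
    have hB : ∀ a : ↥A, ∃ B : ℝ, 0 ≤ B ∧ (wt w a.1 < T → ∀ e : ℝ, 0 < e → e ≤ 1 →
        ∀ c : (Fin 2 →₀ ℕ) → ℂ, MultGE (fun i => ((e : ℝ) : ℂ) ^ w i) (m 0) (P A c) →
        ∀ N : ℝ, (∀ a ∈ A, ‖c a‖ ≤ N) → ‖c a.1‖ ≤ e * B * N) := by
      intro a
      by_cases haT : wt w a.1 < T
      · obtain ⟨B, hB0, hB1⟩ := small w h (m 0) T A h1 hT1 a.2 haT
        exact ⟨B, hB0, fun _ => hB1⟩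
      · exact ⟨0, le_rfl, fun h => (haT h).elim⟩
    choose B hB0 hB1 using hB
    set S : ℝ := ∑ a, B a with hS
    have hS0 : 0 ≤ S := Finset.sum_nonneg fun a _ => hB0 a
    have hBS : ∀ a, B a ≤ S := fun a => Finset.single_le_sum (fun a _ => hB0 a) (Finset.mem_univ a)
    set e : ℝ := 1 / (2 * (K * S + 1)) with he
    have hKS : 0 ≤ (K : ℝ) * S := mul_nonneg K.coe_nonneg hS0
    have he0 : 0 < e := by positivity
    have he1 : e ≤ 1 := by
      rw [he, div_le_one (by positivity)]
      linarith
    have heK : (K : ℝ) * (e * S) ≤ 1 / 2 := by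
      rw [he]
      have h3 : (K : ℝ) * (1 / (2 * (K * S + 1)) * S) = (K * S) / (K * S + 1) / 2 := by
        field_simp
      rw [h3]
      have h4 : (K * S : ℝ) / (K * S + 1) ≤ 1 := by
        rw [div_le_one (by positivity)]; linarith
      linarith
    refine ⟨Fin.cons (fun k => e ^ w k) x', fun c hc a ha => ?_⟩
    have hz : (fun a : ↥A => c a.1) ∈ Z := by
      intro i
      have h3 : P A (ext A (fun a : ↥A => c a.1)) = P A c := by
        unfold P
        exact Finset.sum_congr rfl fun a ha => by rw [ext_apply _ ha]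
      rw [h3]
      exact hc i.succ
    have h0 : MultGE (fun i => ((e : ℝ) : ℂ) ^ w i) (m 0) (P A c) := by
      have h3 := hc 0
      simp only [Fin.cons_zero, Complex.ofReal_pow] at h3
      exact h3
    set z : Z := ⟨fun a : ↥A => c a.1, hz⟩ with hzdef
    have h3 : ‖f z‖ ≤ e * S * ‖z‖ := by
      refine (pi_norm_le_iff_of_nonneg (by positivity)).mpr fun b => ?_
      show ‖if wt w b.1 < T then c b.1 else 0‖ ≤ _
      split_ifs with hb
      · have h4 := hB1 b hb e he0 he1 c h0 ‖z‖ (fun a ha => by
          exact norm_le_pi_norm (fun a : ↥A => c a.1) ⟨a, ha⟩)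
        refine h4.trans (mul_le_mul_of_nonneg_right (mul_le_mul_of_nonneg_left (hBS b) he0.le)
          (norm_nonneg _))
      · rw [norm_zero]; positivity
    have h4 : ‖z‖ ≤ K * ‖f z‖ := by
      have h5 := hK.le_mul_dist z 0
      rwa [dist_zero_right, map_zero, dist_zero_right] at h5
    have h5 : ‖z‖ ≤ 1 / 2 * ‖z‖ := by
      calc ‖z‖ ≤ K * ‖f z‖ := h4
        _ ≤ K * (e * S * ‖z‖) := mul_le_mul_of_nonneg_left h3 K.coe_nonneg
        _ = (K * (e * S)) * ‖z‖ := by ring
        _ ≤ 1 / 2 * ‖z‖ := mul_le_mul_of_nonneg_right heK (norm_nonneg _)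
    have h6 : ‖z‖ = 0 := le_antisymm (by linarith) (norm_nonneg _)
    have h7 : z = 0 := norm_eq_zero.mp h6
    have h8 := congrArg (fun y : Z => y.1 ⟨a, ha⟩) h7
    exact h8

end Vale.Agent.P279
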