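import Vale.Agent.P279.Rank

/-! The inequality for very general points. -/

namespace Vale.Agent.P279

open MvPolynomial

theorem main (r : ℕ) : VeryGeneral r fun p => ∀ (F : MvPolynomial (Fin 2) ℂ) (m : Fin r → ℕ),
    F ≠ 0 → (∀ i, MultGE (p i) (m i) F) → ∀ (w : Fin 2 → ℕ) (h : ℕ),
      (∀ k, (F.support.filter (fun a => wt w a = k)).card ≤ h) →
      ∑ i, (m i + 1 - h) < (F.support.image (wt w)).card := by
  classical
  obtain ⟨e, he⟩ := exists_surjective_nat ((Fin r → ℕ) × Finset (Fin 2 →₀ ℕ))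
  have hH : ∀ d : (Fin r → ℕ) × Finset (Fin 2 →₀ ℕ), ∃ H : MvPolynomial (Fin r × Fin 2) ℂ, H ≠ 0 ∧
      ((∃ x : Fin r → Fin 2 → ℝ, ∀ c : (Fin 2 →₀ ℕ) → ℂ,
        (∀ i, MultGE (fun k => ((x i k : ℝ) : ℂ)) (d.1 i) (P d.2 c)) → ∀ a ∈ d.2, c a = 0) →
      ∀ p : Fin r → Fin 2 → ℂ, eval (fun z => p z.1 z.2) H ≠ 0 → ∀ z : ↥d.2 → ℂ,
      (∀ i, MultGE (p i) (d.1 i) (P d.2 (ext d.2 z))) → z = 0) := by
    intro d
    by_cases hx : ∃ x : Fin r → Fin 2 → ℝ, ∀ c : (Fin 2 →₀ ℕ) → ℂ,
        (∀ i, MultGE (fun k => ((x i k : ℝ) : ℂ)) (d.1 i) (P d.2 c)) → ∀ a ∈ d.2, c a = 0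
    · obtain ⟨x, hx'⟩ := hx
      obtain ⟨H, h1, h2⟩ := exists_poly d.1 d.2 x hx'
      exact ⟨H, h1, fun _ => h2⟩
    · exact ⟨1, one_ne_zero, fun h => (hx h).elim⟩
  choose H hH0 hH1 using hH
  refine ⟨fun j => H (e j), fun j => hH0 _, ?_⟩
  intro p hp F m hF hm w h hcol
  by_contra hc
  push Not at hc
  obtain ⟨j, hj⟩ := he (m, F.support)
  have h1 := hH1 (m, F.support) (exists_pts w h r m F.support hcol hc) p
    (by have h5 := hp j; simp only [hj] at h5; exact h5) (fun a => coeff a.1 F) (by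
      intro i
      have h2 : P F.support (ext F.support fun a => coeff a.1 F) = F := by
        conv_rhs => rw [F.as_sum]
        unfold P
        exact Finset.sum_congr rfl fun a ha => by rw [ext_apply _ ha]
      show MultGE (p i) (m i) (P F.support (ext F.support fun a => coeff a.1 F))
      rw [h2]
      exact hm i)
  refine hF (MvPolynomial.ext _ _ fun a => ?_)
  rw [coeff_zero]
  by_cases ha : a ∈ F.support
  · exact congrFun h1 ⟨a, ha⟩
  · exact notMem_support_iff.mp ha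

theorem sum_le {r : ℕ} (m : Fin r → ℕ) {h : ℕ} (hh : 1 ≤ h) :
    ∑ i, m i ≤ ∑ i, (m i + 1 - h) + r * (h - 1) := by
  have h1 : ∑ i, m i ≤ ∑ i, ((m i + 1 - h) + (h - 1)) := Finset.sum_le_sum fun i _ => by omega
  refine h1.trans (le_of_eq ?_)
  rw [Finset.sum_add_distrib]
  simp

theorem deg_le {F : MvPolynomial (Fin 2) ℂ} {d : ℕ} (hd : F.totalDegree ≤ d) {a : Fin 2 →₀ ℕ}
    (ha : a ∈ F.support) : a 0 + a 1 ≤ d := by
  have h1 := (le_totalDegree ha).trans hd
  rwa [Finsupp.sum_fintype _ _ (fun _ => rfl), Fin.sum_univ_two] at h1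

theorem final (r : ℕ) : VeryGeneral r fun p => ∀ (d : ℕ) (F : MvPolynomial (Fin 2) ℂ)
    (m : Fin r → ℕ), F ≠ 0 → F.totalDegree ≤ d → (∀ i, MultGE (p i) (m i) F) →
    (∀ (w : Fin 2 → ℕ) (h : ℕ),
      (∀ k, (F.support.filter (fun a => w 0 * a 0 + w 1 * a 1 = k)).card ≤ h) →
      ∑ i, (m i + 1 - h) < (F.support.image (fun a => w 0 * a 0 + w 1 * a 1)).card) ∧
    ∑ i, m i < F.support.card ∧
    ((F.support.card : ℝ) ≤ d * √r → ((∑ i, m i : ℕ) : ℝ) < d * √r) ∧
    ∀ h : ℕ, (d : ℝ) + r * ((h : ℝ) - 1) < d * √r →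
      ((∀ k, (F.support.filter (fun a => a 0 = k)).card ≤ h) ∨
        (∀ k, (F.support.filter (fun a => a 1 = k)).card ≤ h) ∨
        ∀ k, (F.support.filter (fun a => a 0 + a 1 = k)).card ≤ h) →
      ((∑ i, m i : ℕ) : ℝ) < d * √r := by
  classical
  obtain ⟨H, hH0, hH⟩ := main r
  refine ⟨H, hH0, fun p hp d F m hF hd hm => ?_⟩
  have key := hH p hp F m hF hm
  obtain ⟨a₀, ha₀⟩ : F.support.Nonempty := by
    rw [Finset.nonempty_iff_ne_empty]
    exact fun h => hF (support_eq_empty.mp h)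
  have h2 : ∑ i, m i < F.support.card := by
    have hlt : ∀ a ∈ F.support, a 0 < d + 1 := fun a ha => by have := deg_le hd ha; omega
    have hinj : Set.InjOn (wt ![1, d + 1]) F.support := by
      intro a ha b hb hab
      have h3 : a 0 + (d + 1) * a 1 = b 0 + (d + 1) * b 1 := by
        simpa [wt] using hab
      have h4 := hlt a ha
      have h5 := hlt b hb
      have h6 : a 0 = b 0 := by
        have := congrArg (· % (d + 1)) h3
        simpa [Nat.add_mul_mod_self_left, Nat.mod_eq_of_lt h4, Nat.mod_eq_of_lt h5] using this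
      have h7 : a 1 = b 1 := by
        rw [h6] at h3
        exact Nat.eq_of_mul_eq_mul_left (Nat.succ_pos d) (Nat.add_left_cancel h3)
      refine Finsupp.ext fun i => ?_
      fin_cases i
      · exact h6
      · exact h7
    have h3 := key ![1, d + 1] 1 (fun k => by
      refine Finset.card_le_one.mpr fun a ha b hb => ?_
      obtain ⟨ha1, ha2⟩ := Finset.mem_filter.mp ha
      obtain ⟨hb1, hb2⟩ := Finset.mem_filter.mp hb
      exact hinj ha1 hb1 (ha2.trans hb2.symm))
    rw [Finset.card_image_of_injOn hinj] at h3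
    simpa using h3
  refine ⟨fun w h => key w h, h2, ?_, ?_⟩
  · intro h3
    have h4 : ((∑ i, m i : ℕ) : ℝ) < F.support.card := by exact_mod_cast h2
    linarith
  · have fin : ∀ (w : Fin 2 → ℕ) (h : ℕ), (∀ a ∈ F.support, wt w a ≤ d) →
        (∀ k, (F.support.filter (fun a => wt w a = k)).card ≤ h) →
        (d : ℝ) + r * ((h : ℝ) - 1) < d * √r → ((∑ i, m i : ℕ) : ℝ) < d * √r := by
      intro w h hw hcol h3
      have h4 : 1 ≤ h := by
        refine le_trans ?_ (hcol (wt w a₀))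
        exact Finset.card_pos.mpr ⟨a₀, Finset.mem_filter.mpr ⟨ha₀, rfl⟩⟩
      have h5 := key w h hcol
      have h6 : (F.support.image (wt w)).card ≤ d + 1 := by
        refine (Finset.card_le_card (t := Finset.range (d + 1)) ?_).trans
          (le_of_eq (Finset.card_range _))
        intro y hy
        obtain ⟨a, ha, rfl⟩ := Finset.mem_image.mp hy
        exact Finset.mem_range.mpr (Nat.lt_succ_of_le (hw a ha))
      have h7 := sum_le m h4
      have h8 : ∑ i, m i ≤ d + r * (h - 1) := by omega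
      have h9 : ((∑ i, m i : ℕ) : ℝ) ≤ (d : ℝ) + r * ((h : ℝ) - 1) := by
        have h10 : ((∑ i, m i : ℕ) : ℝ) ≤ ((d + r * (h - 1) : ℕ) : ℝ) := by exact_mod_cast h8
        rw [Nat.cast_add, Nat.cast_mul, Nat.cast_sub h4, Nat.cast_one] at h10
        exact h10
      linarith
    intro h h3 h4
    have e0 : ∀ a, wt ![1, 0] a = a 0 := fun a => by simp [wt]
    have e1 : ∀ a, wt ![0, 1] a = a 1 := fun a => by simp [wt]
    have e2 : ∀ a, wt ![1, 1] a = a 0 + a 1 := fun a => by simp [wt]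
    rcases h4 with h4 | h4 | h4
    · exact fin ![1, 0] h (fun a ha => by rw [e0]; have := deg_le hd ha; omega)
        (fun k => by simp only [e0]; exact h4 k) h3
    · exact fin ![0, 1] h (fun a ha => by rw [e1]; have := deg_le hd ha; omega)
        (fun k => by simp only [e1]; exact h4 k) h3
    · exact fin ![1, 1] h (fun a ha => by rw [e2]; exact deg_le hd ha)
        (fun k => by simp only [e2]; exact h4 k) h3

end Vale.Agent.P279
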