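import Vale.Agent.P279.Defs

/-! Rules for `MultGE`, and the diagonal operators. -/

namespace Vale.Agent.P279

open MvPolynomial

theorem MultGE.zero {p : Fin 2 → ℂ} : ∀ m, MultGE p m 0
  | 0 => trivial
  | m + 1 => ⟨by simp, fun i => by rw [map_zero]; exact MultGE.zero m⟩

theorem MultGE.add {p : Fin 2 → ℂ} : ∀ {m : ℕ} {F G : MvPolynomial (Fin 2) ℂ},
    MultGE p m F → MultGE p m G → MultGE p m (F + G)
  | 0, _, _, _, _ => trivial
  | m + 1, F, G, hF, hG => ⟨by rw [map_add, hF.1, hG.1, add_zero], fun i => by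
      rw [map_add]; exact MultGE.add (hF.2 i) (hG.2 i)⟩

theorem MultGE.smul {p : Fin 2 → ℂ} (c : ℂ) : ∀ {m : ℕ} {F : MvPolynomial (Fin 2) ℂ},
    MultGE p m F → MultGE p m (c • F)
  | 0, _, _ => trivial
  | m + 1, F, hF => ⟨by rw [smul_eval, hF.1, mul_zero], fun i => by
      rw [Derivation.map_smul]; exact MultGE.smul c (hF.2 i)⟩

theorem MultGE.pred {p : Fin 2 → ℂ} : ∀ {m : ℕ} {F : MvPolynomial (Fin 2) ℂ},
    MultGE p (m + 1) F → MultGE p m F
  | 0, _, _ => trivial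
  | m + 1, _, hF => ⟨hF.1, fun i => MultGE.pred (hF.2 i)⟩

theorem MultGE.mono {p : Fin 2 → ℂ} {m n : ℕ} (h : n ≤ m) {F : MvPolynomial (Fin 2) ℂ}
    (hF : MultGE p m F) : MultGE p n F := by
  induction m with
  | zero => obtain rfl : n = 0 := by omega
            exact hF
  | succ m ih =>
    rcases Nat.lt_or_ge m n with h1 | h1
    · obtain rfl : n = m + 1 := by omega
      exact hF
    · exact ih h1 hF.pred

theorem MultGE.X_mul {p : Fin 2 → ℂ} (j : Fin 2) : ∀ {m : ℕ} {F : MvPolynomial (Fin 2) ℂ},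
    MultGE p m F → MultGE p m (X j * F)
  | 0, _, _ => trivial
  | m + 1, F, hF => ⟨by rw [map_mul, hF.1, mul_zero], fun i => by
      rw [pderiv_mul]
      refine MultGE.add ?_ (MultGE.X_mul j (hF.2 i))
      by_cases hij : j = i
      · subst hij
        rw [pderiv_X_self, one_mul]
        exact hF.pred
      · rw [pderiv_X_of_ne hij, zero_mul]
        exact MultGE.zero m⟩

/-- a diagonal operator of order one -/
noncomputable def op (t : ℂ × ℂ × ℂ) (F : MvPolynomial (Fin 2) ℂ) : MvPolynomial (Fin 2) ℂ :=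
  t.1 • (X 0 * pderiv 0 F) + t.2.1 • (X 1 * pderiv 1 F) + (-t.2.2) • F

theorem MultGE.op {p : Fin 2 → ℂ} (t : ℂ × ℂ × ℂ) {m : ℕ} {F : MvPolynomial (Fin 2) ℂ}
    (hF : MultGE p (m + 1) F) : MultGE p m (op t F) :=
  ((((hF.2 0).X_mul 0).smul _).add (((hF.2 1).X_mul 1).smul _)).add (hF.pred.smul _)

/-- the eigenvalue of `op t` at the monomial `a` -/
def ev (t : ℂ × ℂ × ℂ) (a : Fin 2 →₀ ℕ) : ℂ := t.1 * a 0 + t.2.1 * a 1 - t.2.2

/-- the polynomial with coefficients `c` on `A` -/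
noncomputable def P (A : Finset (Fin 2 →₀ ℕ)) (c : (Fin 2 →₀ ℕ) → ℂ) : MvPolynomial (Fin 2) ℂ :=
  ∑ a ∈ A, monomial a (c a)

theorem op_monomial (t : ℂ × ℂ × ℂ) (a : Fin 2 →₀ ℕ) (r : ℂ) :
    op t (monomial a r) = monomial a (ev t a * r) := by
  unfold op ev
  rw [X_mul_pderiv_monomial, X_mul_pderiv_monomial]
  simp only [nsmul_eq_mul, ← C_eq_coe_nat, smul_monomial, C_mul_monomial, ← map_add, smul_eq_mul]
  congr 1
  ring

theorem op_P (t : ℂ × ℂ × ℂ) (A : Finset (Fin 2 →₀ ℕ)) (c : (Fin 2 →₀ ℕ) → ℂ) :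
    op t (P A c) = P A (fun a => ev t a * c a) := by
  have h1 : op t (P A c) = ∑ a ∈ A, op t (monomial a (c a)) := by
    unfold op P
    simp only [map_sum, Finset.mul_sum, Finset.smul_sum, Finset.sum_add_distrib]
  rw [h1]
  exact Finset.sum_congr rfl fun a _ => op_monomial _ _ _

/-- the product of the eigenvalues -/
noncomputable def q (l : List (ℂ × ℂ × ℂ)) (a : Fin 2 →₀ ℕ) : ℂ := (l.map (fun t => ev t a)).prod

theorem mult_q {p : Fin 2 → ℂ} (A : Finset (Fin 2 →₀ ℕ)) : ∀ (l : List (ℂ × ℂ × ℂ)) {m : ℕ}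
    {c : (Fin 2 →₀ ℕ) → ℂ}, MultGE p (m + l.length) (P A c) →
    MultGE p m (P A (fun a => q l a * c a))
  | [], m, c, h => by simpa [q] using h
  | t :: l, m, c, h => by
    have h1 : MultGE p (m + l.length) (P A (fun a => ev t a * c a)) := by
      rw [← op_P]
      exact MultGE.op t h
    have h2 := mult_q A l h1
    have h3 : (fun a => q l a * (ev t a * c a)) = fun a => q (t :: l) a * c a := by
      funext a
      simp only [q, List.map_cons, List.prod_cons]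
      ring
    rwa [h3] at h2

/-- the weight of a monomial -/
def wt (w : Fin 2 → ℕ) (a : Fin 2 →₀ ℕ) : ℕ := w 0 * a 0 + w 1 * a 1

theorem eval_P (w : Fin 2 → ℕ) (A : Finset (Fin 2 →₀ ℕ)) (c : (Fin 2 →₀ ℕ) → ℂ) (e : ℂ) :
    eval (fun i => e ^ w i) (P A c) = ∑ a ∈ A, c a * e ^ wt w a := by
  unfold P
  rw [map_sum]
  refine Finset.sum_congr rfl fun a _ => ?_
  rw [eval_monomial, Finsupp.prod_fintype _ _ (by simp), Fin.prod_univ_two]
  rw [wt, pow_add, pow_mul, pow_mul]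

end Vale.Agent.P279
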