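import Vale.Agent.P279.Mult

/-! Existence of one real tuple of points with independent conditions. -/

namespace Vale.Agent.P279

open MvPolynomial

theorem exists_threshold (J : Finset ℕ) : ∀ n : ℕ, ∃ T : ℕ, (J.filter (· < T)).card ≤ n ∧
    (J.filter (T ≤ ·)).card ≤ J.card - n := by
  intro n
  induction n with
  | zero => exact ⟨0, by simp, by simp⟩
  | succ n ih =>
    obtain ⟨T, h1, h2⟩ := ih
    rcases (J.filter (T ≤ ·)).eq_empty_or_nonempty with h | h
    · exact ⟨T, by omega, by rw [h]; simp⟩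
    · have hm := Finset.min'_mem _ h
      obtain ⟨hm1, hm2⟩ := Finset.mem_filter.mp hm
      set M := (J.filter (T ≤ ·)).min' h with hM
      refine ⟨M + 1, ?_, ?_⟩
      · have hsub : J.filter (· < M + 1) ⊆ insert M (J.filter (· < T)) := by
          intro x hx
          obtain ⟨hx1, hx2⟩ := Finset.mem_filter.mp hx
          by_cases hxT : x < T
          · exact Finset.mem_insert_of_mem (Finset.mem_filter.mpr ⟨hx1, hxT⟩)
          · have : M ≤ x := Finset.min'_le _ _ (Finset.mem_filter.mpr ⟨hx1, not_lt.mp hxT⟩)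
            have : x = M := by omega
            rw [this]; exact Finset.mem_insert_self _ _
        exact (Finset.card_le_card hsub).trans ((Finset.card_insert_le _ _).trans (by omega))
      · have hsub : J.filter (M + 1 ≤ ·) ⊆ (J.filter (T ≤ ·)).erase M := by
          intro x hx
          obtain ⟨hx1, hx2⟩ := Finset.mem_filter.mp hx
          refine Finset.mem_erase.mpr ⟨by omega, Finset.mem_filter.mpr ⟨hx1, by omega⟩⟩
        refine (Finset.card_le_card hsub).trans ?_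
        rw [Finset.card_erase_of_mem hm]
        omega

open Classical in
/-- isolate one coefficient -/
theorem exists_list (w : Fin 2 → ℕ) (h n : ℕ) (A : Finset (Fin 2 →₀ ℕ))
    (hA : ∀ k, (A.filter (fun a => wt w a = k)).card ≤ h) (hn : (A.image (wt w)).card ≤ n + 1 - h)
    {a₀ : Fin 2 →₀ ℕ} (ha₀ : a₀ ∈ A) :
    ∃ l : List (ℂ × ℂ × ℂ), l.length + 1 ≤ n ∧ q l a₀ ≠ 0 ∧ ∀ a ∈ A, a ≠ a₀ → q l a = 0 := by
  set L := (A.image (wt w)).erase (wt w a₀) with hL
  set B := (A.filter (fun a => wt w a = wt w a₀)).erase a₀ with hB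
  have hL1 : wt w a₀ ∈ A.image (wt w) := Finset.mem_image_of_mem _ ha₀
  have hB1 : a₀ ∈ A.filter (fun a => wt w a = wt w a₀) := Finset.mem_filter.mpr ⟨ha₀, rfl⟩
  set f : ℕ → ℂ × ℂ × ℂ := fun k => ((w 0 : ℂ), (w 1 : ℂ), (k : ℂ)) with hf
  set g : (Fin 2 →₀ ℕ) → ℂ × ℂ × ℂ := fun a' => if a' 0 ≠ a₀ 0 then (1, 0, (a' 0 : ℂ)) else
    (0, 1, (a' 1 : ℂ)) with hg
  have evf : ∀ k a, ev (f k) a = (wt w a : ℂ) - k := by
    intro k a
    simp only [ev, hf, wt]
    push_cast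
    ring
  refine ⟨L.toList.map f ++ B.toList.map g, ?_, ?_, ?_⟩
  · rw [List.length_append, List.length_map, List.length_map, Finset.length_toList,
      Finset.length_toList, hL, hB, Finset.card_erase_of_mem hL1, Finset.card_erase_of_mem hB1]
    have h1 := hA (wt w a₀)
    have h2 : 0 < (A.image (wt w)).card := Finset.card_pos.mpr ⟨_, hL1⟩
    have h3 : 0 < (A.filter (fun a => wt w a = wt w a₀)).card := Finset.card_pos.mpr ⟨_, hB1⟩
    omega
  · unfold q
    refine List.prod_ne_zero ?_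
    intro h0
    obtain ⟨t, ht, ht0⟩ := List.mem_map.mp h0
    rcases List.mem_append.mp ht with h1 | h1
    · obtain ⟨k, hk, rfl⟩ := List.mem_map.mp h1
      rw [evf] at ht0
      have h2 := (Finset.mem_erase.mp (Finset.mem_toList.mp hk)).1
      have h3 : (wt w a₀ : ℂ) = k := by linear_combination ht0
      exact h2 (by exact_mod_cast h3.symm)
    · obtain ⟨a', ha', rfl⟩ := List.mem_map.mp h1
      have h2 := (Finset.mem_erase.mp (Finset.mem_toList.mp ha')).1
      by_cases h3 : a' 0 ≠ a₀ 0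
      · simp only [hg, if_pos h3, ev] at ht0
        have h4 : (a₀ 0 : ℂ) = a' 0 := by linear_combination ht0
        exact h3 (by exact_mod_cast h4.symm)
      · simp only [hg, if_neg h3, ev] at ht0
        have h4 : (a₀ 1 : ℂ) = a' 1 := by linear_combination ht0
        push Not at h3
        refine h2 (Finsupp.ext fun i => ?_)
        fin_cases i
        · exact h3
        · exact_mod_cast h4.symm
  · intro a ha haa
    unfold q
    refine List.prod_eq_zero ?_
    by_cases h1 : wt w a = wt w a₀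
    · refine List.mem_map.mpr ⟨g a, List.mem_append.mpr (Or.inr (List.mem_map.mpr ⟨a,
        Finset.mem_toList.mpr (Finset.mem_erase.mpr ⟨haa, Finset.mem_filter.mpr ⟨ha, h1⟩⟩), rfl⟩)), ?_⟩
      by_cases h3 : a 0 ≠ a₀ 0
      · simp only [hg, if_pos h3, ev]; ring
      · simp only [hg, if_neg h3, ev]; ring
    · refine List.mem_map.mpr ⟨f (wt w a), List.mem_append.mpr (Or.inl (List.mem_map.mpr ⟨wt w a,
        Finset.mem_toList.mpr (Finset.mem_erase.mpr ⟨h1, Finset.mem_image_of_mem _ ha⟩), rfl⟩)), ?_⟩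
      rw [evf, sub_self]

/-- the coefficients below the threshold are small -/
theorem small (w : Fin 2 → ℕ) (h n T : ℕ) (A : Finset (Fin 2 →₀ ℕ))
    (hA : ∀ k, (A.filter (fun a => wt w a = k)).card ≤ h)
    (hn : ((A.image (wt w)).filter (· < T)).card ≤ n + 1 - h)
    {a₀ : Fin 2 →₀ ℕ} (ha₀ : a₀ ∈ A) (hT : wt w a₀ < T) :
    ∃ B : ℝ, 0 ≤ B ∧ ∀ e : ℝ, 0 < e → e ≤ 1 → ∀ c : (Fin 2 →₀ ℕ) → ℂ,
      MultGE (fun i => ((e : ℝ) : ℂ) ^ w i) n (P A c) → ∀ N : ℝ, (∀ a ∈ A, ‖c a‖ ≤ N) →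
      ‖c a₀‖ ≤ e * B * N := by
  classical
  obtain ⟨l, hl1, hl2, hl3⟩ := exists_list w h n (A.filter (fun a => wt w a < T)) (fun k =>
    (Finset.card_le_card (Finset.filter_subset_filter _ (Finset.filter_subset _ _))).trans (hA k)) (by
      refine le_trans (Finset.card_le_card ?_) hn
      intro x hx
      obtain ⟨a, ha, rfl⟩ := Finset.mem_image.mp hx
      obtain ⟨h1, h2⟩ := Finset.mem_filter.mp ha
      exact Finset.mem_filter.mpr ⟨Finset.mem_image_of_mem _ h1, h2⟩)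
    (Finset.mem_filter.mpr ⟨ha₀, hT⟩)
  have hq0 : 0 < ‖q l a₀‖ := norm_pos_iff.mpr hl2
  refine ⟨∑ a ∈ A, ‖q l a‖ / ‖q l a₀‖, Finset.sum_nonneg fun a _ => by positivity, ?_⟩
  intro e he0 he1 c hc N hN
  have hN0 : 0 ≤ N := (norm_nonneg _).trans (hN a₀ ha₀)
  have h1 : MultGE (fun i => ((e : ℝ) : ℂ) ^ w i) 1 (P A (fun a => q l a * c a)) :=
    mult_q A l (hc.mono (by omega))
  have h2 := h1.1
  rw [eval_P, ← Finset.add_sum_erase A _ ha₀] at h2
  have h3 : q l a₀ * c a₀ * (e:ℂ) ^ wt w a₀ =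
      - ∑ a ∈ A.erase a₀, q l a * c a * (e:ℂ) ^ wt w a := by linear_combination h2
  have h4 : ‖q l a₀‖ * ‖c a₀‖ * e ^ wt w a₀ ≤
      ∑ a ∈ A.erase a₀, ‖q l a‖ * N * (e * e ^ wt w a₀) := by
    have h5 : ‖q l a₀ * c a₀ * (e:ℂ) ^ wt w a₀‖ = ‖q l a₀‖ * ‖c a₀‖ * e ^ wt w a₀ := by
      rw [norm_mul, norm_mul, norm_pow, Complex.norm_real, Real.norm_eq_abs, abs_of_pos he0]
    rw [← h5, h3, norm_neg]
    refine (norm_sum_le _ _).trans (Finset.sum_le_sum fun a ha => ?_)
    obtain ⟨ha1, ha2⟩ := Finset.mem_erase.mp ha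
    rw [norm_mul, norm_mul, norm_pow, Complex.norm_real, Real.norm_eq_abs, abs_of_pos he0]
    by_cases hq : q l a = 0
    · rw [hq]; simp
    · have h6 : T ≤ wt w a := by
        by_contra h7
        exact hq (hl3 a (Finset.mem_filter.mpr ⟨ha2, not_le.mp h7⟩) ha1)
      have h7 : e ^ wt w a ≤ e * e ^ wt w a₀ := by
        rw [← pow_succ']
        exact pow_le_pow_of_le_one he0.le he1 (by omega)
      exact mul_le_mul (mul_le_mul_of_nonneg_left (hN a ha2) (norm_nonneg _)) h7 (by positivity)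
        (by positivity)
  have h5 : ∑ a ∈ A.erase a₀, ‖q l a‖ * N * (e * e ^ wt w a₀) ≤
      ∑ a ∈ A, ‖q l a‖ * N * (e * e ^ wt w a₀) :=
    Finset.sum_le_sum_of_subset_of_nonneg (Finset.erase_subset _ _) fun a _ _ => by positivity
  have h6 : ∑ a ∈ A, ‖q l a‖ * N * (e * e ^ wt w a₀) =
      (∑ a ∈ A, ‖q l a‖) * N * e * e ^ wt w a₀ := by
    rw [Finset.sum_mul, Finset.sum_mul, Finset.sum_mul]
    exact Finset.sum_congr rfl fun a _ => by ring
  have h7 : ‖q l a₀‖ * ‖c a₀‖ ≤ (∑ a ∈ A, ‖q l a‖) * N * e := by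
    have h8 : ‖q l a₀‖ * ‖c a₀‖ * e ^ wt w a₀ ≤ (∑ a ∈ A, ‖q l a‖) * N * e * e ^ wt w a₀ := by
      rw [← h6]; exact h4.trans h5
    exact le_of_mul_le_mul_right h8 (by positivity)
  rw [← Finset.sum_div]
  have h9 : e * ((∑ a ∈ A, ‖q l a‖) / ‖q l a₀‖) * N = ((∑ a ∈ A, ‖q l a‖) * N * e) / ‖q l a₀‖ := by
    ring
  rw [h9, le_div_iff₀ hq0]
  linarith

end Vale.Agent.P279
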