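import Vale.Agent.P279.Ind

/-! Openness of independence: one real tuple gives a nonzero polynomial. -/

namespace Vale.Agent.P279

open MvPolynomial Matrix
open scoped ComplexOrder

/-- iterated partial derivative -/
noncomputable def pd : List (Fin 2) → (MvPolynomial (Fin 2) ℂ →ₗ[ℂ] MvPolynomial (Fin 2) ℂ)
  | [] => LinearMap.id
  | i :: l => (pd l).comp (pderiv i).toLinearMap

theorem mult_iff (p : Fin 2 → ℂ) : ∀ (m : ℕ) (F : MvPolynomial (Fin 2) ℂ),
    MultGE p m F ↔ ∀ l : List (Fin 2), l.length < m → eval p (pd l F) = 0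
  | 0, F => ⟨fun _ l hl => by omega, fun _ => trivial⟩
  | m + 1, F => by
    constructor
    · rintro ⟨h1, h2⟩ l hl
      cases l with
      | nil => exact h1
      | cons i l =>
        exact (mult_iff p m (pderiv i F)).mp (h2 i) l (by simpa using hl)
    · intro h
      refine ⟨h [] (by simp), fun i => (mult_iff p m (pderiv i F)).mpr fun l hl => ?_⟩
      exact h (i :: l) (by simpa using hl)

theorem pd_real : ∀ (l : List (Fin 2)) (G : MvPolynomial (Fin 2) ℝ),
    ∃ G' : MvPolynomial (Fin 2) ℝ, pd l (map Complex.ofRealHom G) = map Complex.ofRealHom G'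
  | [], G => ⟨G, rfl⟩
  | i :: l, G => by
    obtain ⟨G', h⟩ := pd_real l (pderiv i G)
    refine ⟨G', ?_⟩
    rw [← h]
    show pd l (pderiv i (map Complex.ofRealHom G)) = _
    rw [pderiv_map]

theorem eval_real (x : Fin 2 → ℝ) (G : MvPolynomial (Fin 2) ℝ) :
    eval (fun k => ((x k : ℝ) : ℂ)) (map Complex.ofRealHom G) = ((eval x G : ℝ) : ℂ) := by
  rw [eval_map]
  exact (eval₂_comp_left' Complex.ofRealHom x G)
where
  eval₂_comp_left' (f : ℝ →+* ℂ) (x : Fin 2 → ℝ) (G : MvPolynomial (Fin 2) ℝ) :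
      eval₂ f (fun k => f (x k)) G = f (eval x G) := by
    induction G using MvPolynomial.induction_on with
    | C a => simp
    | add p q hp hq => rw [eval₂_add, hp, hq, map_add, map_add]
    | mul_X p i hp => rw [eval₂_mul, hp, eval₂_X, map_mul, eval_X, map_mul]

/-- the index set of the conditions -/
abbrev Cond {r : ℕ} (m : Fin r → ℕ) : Type := (i : Fin r) × {l : List (Fin 2) // l.length < m i}

instance {r : ℕ} (m : Fin r → ℕ) : Finite (Cond m) := by
  have : ∀ i, Finite {l : List (Fin 2) // l.length < m i} := fun i =>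
    (List.finite_length_lt (Fin 2) (m i)).to_subtype
  infer_instance

noncomputable instance {r : ℕ} (m : Fin r → ℕ) : Fintype (Cond m) := Fintype.ofFinite _

/-- the matrix of the conditions -/
noncomputable def N {r : ℕ} (m : Fin r → ℕ) (A : Finset (Fin 2 →₀ ℕ)) :
    Matrix (Cond m) ↥A (MvPolynomial (Fin r × Fin 2) ℂ) :=
  fun b a => rename (fun k => (b.1, k)) (pd b.2.1 (monomial a.1 1))

/-- the matrix at a tuple -/
noncomputable def Nv {r : ℕ} (m : Fin r → ℕ) (A : Finset (Fin 2 →₀ ℕ)) (p : Fin r → Fin 2 → ℂ) :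
    Matrix (Cond m) ↥A ℂ :=
  fun b a => eval (p b.1) (pd b.2.1 (monomial a.1 1))

theorem N_map {r : ℕ} (m : Fin r → ℕ) (A : Finset (Fin 2 →₀ ℕ)) (p : Fin r → Fin 2 → ℂ) :
    (N m A).map (eval (fun z => p z.1 z.2)) = Nv m A p := by
  ext b a
  simp only [Matrix.map_apply, N, Nv]
  rw [eval_rename]
  rfl

theorem Nv_mulVec {r : ℕ} (m : Fin r → ℕ) (A : Finset (Fin 2 →₀ ℕ)) (p : Fin r → Fin 2 → ℂ)
    (z : ↥A → ℂ) (b : Cond m) :
    (Nv m A p *ᵥ z) b = eval (p b.1) (pd b.2.1 (P A (ext A z))) := by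
  unfold P
  rw [map_sum, map_sum, ← Finset.sum_coe_sort A]
  simp only [Matrix.mulVec, dotProduct, Nv]
  refine Finset.sum_congr rfl fun a _ => ?_
  rw [ext_apply _ a.2]
  have h1 : (monomial a.1 (z ⟨a.1, a.2⟩) : MvPolynomial (Fin 2) ℂ) = z a • monomial a.1 1 := by
    rw [smul_monomial, smul_eq_mul, mul_one]
  rw [h1, map_smul, smul_eval]
  ring

theorem Nv_zero_iff {r : ℕ} (m : Fin r → ℕ) (A : Finset (Fin 2 →₀ ℕ)) (p : Fin r → Fin 2 → ℂ)
    (z : ↥A → ℂ) : Nv m A p *ᵥ z = 0 ↔ ∀ i, MultGE (p i) (m i) (P A (ext A z)) := by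
  constructor
  · intro h i
    rw [mult_iff]
    intro l hl
    have := congrFun h ⟨i, l, hl⟩
    rw [Nv_mulVec] at this
    exact this
  · intro h
    funext b
    rw [Nv_mulVec]
    exact (mult_iff _ _ _).mp (h b.1) b.2.1 b.2.2

theorem exists_poly {r : ℕ} (m : Fin r → ℕ) (A : Finset (Fin 2 →₀ ℕ)) (x : Fin r → Fin 2 → ℝ)
    (hx : ∀ c : (Fin 2 →₀ ℕ) → ℂ,
      (∀ i, MultGE (fun k => ((x i k : ℝ) : ℂ)) (m i) (P A c)) → ∀ a ∈ A, c a = 0) :
    ∃ H : MvPolynomial (Fin r × Fin 2) ℂ, H ≠ 0 ∧ ∀ p : Fin r → Fin 2 → ℂ,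
      eval (fun z => p z.1 z.2) H ≠ 0 → ∀ z : ↥A → ℂ,
      (∀ i, MultGE (p i) (m i) (P A (ext A z))) → z = 0 := by
  have hdet : ∀ p : Fin r → Fin 2 → ℂ, eval (fun z => p z.1 z.2) (((N m A)ᵀ * N m A).det) =
      ((Nv m A p)ᵀ * Nv m A p).det := by
    intro p
    rw [RingHom.map_det]
    congr 1
    rw [RingHom.mapMatrix_apply, Matrix.map_mul, Matrix.transpose_map, N_map]
  refine ⟨((N m A)ᵀ * N m A).det, ?_, ?_⟩
  · intro h0
    have h1 := hdet (fun i k => ((x i k : ℝ) : ℂ))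
    rw [h0, map_zero] at h1
    obtain ⟨v, hv, hv2⟩ := Matrix.exists_mulVec_eq_zero_iff.mpr h1.symm
    have h2 : (Nv m A (fun i k => ((x i k : ℝ) : ℂ)))ᵀ =
        (Nv m A (fun i k => ((x i k : ℝ) : ℂ)))ᴴ := by
      ext a b
      simp only [Matrix.transpose_apply, Matrix.conjTranspose_apply, Nv]
      obtain ⟨G', hG'⟩ := pd_real b.2.1 (monomial a.1 1)
      rw [map_monomial, map_one] at hG'
      rw [hG', eval_real]
      simp
    rw [h2] at hv2
    have h3 := (Matrix.conjTranspose_mul_self_mulVec_eq_zero _ _).mp hv2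
    have h4 := hx (ext A v) ((Nv_zero_iff m A _ v).mp h3)
    refine hv (funext fun a => ?_)
    have h5 := h4 a.1 a.2
    rwa [ext_apply _ a.2] at h5
  · intro p hp z hz
    rw [hdet] at hp
    have h1 := (Nv_zero_iff m A p z).mpr hz
    refine Matrix.eq_zero_of_mulVec_eq_zero hp ?_
    rw [← Matrix.mulVec_mulVec, h1, Matrix.mulVec_zero]

end Vale.Agent.P279
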